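import Vale.Agent.P038.Data

/-! Kernel checks of the certificate. -/

namespace Vale.Agent.P038

theorem chk_000 : chk cert 0 0 0 = true := by decide +kernel

theorem chk_004 : chk cert 0 0 4 = true := by decide +kernel

theorem chk_014 : chk cert 0 1 4 = true := by decide +kernel

theorem chk_033 : chk cert 0 3 3 = true := by decide +kernel

theorem chk_112 : chk cert 1 1 2 = true := by decide +kernel

theorem chk_123 : chk cert 1 2 3 = true := by decide +kernel

theorem chk_144 : chk cert 1 4 4 = true := by decide +kernel

theorem chk_233 : chk cert 2 3 3 = true := by decide +kernel

theorem chk_334 : chk cert 3 3 4 = true := by decide +kernel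

end Vale.Agent.P038
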