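import Vale.Agent.P038.Data

/-! Kernel checks of the certificate. -/

namespace Vale.Agent.P038

theorem chk_001 : chk cert 0 0 1 = true := by decide +kernel

theorem chk_011 : chk cert 0 1 1 = true := by decide +kernel

theorem chk_022 : chk cert 0 2 2 = true := by decide +kernel

theorem chk_034 : chk cert 0 3 4 = true := by decide +kernel

theorem chk_113 : chk cert 1 1 3 = true := by decide +kernel

theorem chk_124 : chk cert 1 2 4 = true := by decide +kernel

theorem chk_222 : chk cert 2 2 2 = true := by decide +kernel

theorem chk_234 : chk cert 2 3 4 = true := by decide +kernel

theorem chk_344 : chk cert 3 4 4 = true := by decide +kernel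

end Vale.Agent.P038
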