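import Vale.Agent.P038.Data

/-! Kernel checks of the certificate. -/

namespace Vale.Agent.P038

theorem chk_002 : chk cert 0 0 2 = true := by decide +kernel

theorem chk_012 : chk cert 0 1 2 = true := by decide +kernel

theorem chk_023 : chk cert 0 2 3 = true := by decide +kernel

theorem chk_044 : chk cert 0 4 4 = true := by decide +kernel

theorem chk_114 : chk cert 1 1 4 = true := by decide +kernel

theorem chk_133 : chk cert 1 3 3 = true := by decide +kernel

theorem chk_223 : chk cert 2 2 3 = true := by decide +kernel

theorem chk_244 : chk cert 2 4 4 = true := by decide +kernel

theorem chk_444 : chk cert 4 4 4 = true := by decide +kernel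

end Vale.Agent.P038
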