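import Vale.Agent.P038.Data

/-! Kernel checks of the certificate. -/

namespace Vale.Agent.P038

theorem chk_003 : chk cert 0 0 3 = true := by decide +kernel

theorem chk_013 : chk cert 0 1 3 = true := by decide +kernel

theorem chk_024 : chk cert 0 2 4 = true := by decide +kernel

theorem chk_111 : chk cert 1 1 1 = true := by decide +kernel

theorem chk_122 : chk cert 1 2 2 = true := by decide +kernel

theorem chk_134 : chk cert 1 3 4 = true := by decide +kernel

theorem chk_224 : chk cert 2 2 4 = true := by decide +kernel

theorem chk_333 : chk cert 3 3 3 = true := by decide +kernel

end Vale.Agent.P038
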