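import Mathlib

/-! Arc minimal counterexamples and the subset property. -/

namespace Vale.Agent.P038

open Finset

variable {V : Type*} [Fintype V] [DecidableEq V]

def Nb (E : Finset (V × V)) (S : Finset V) : Finset V := univ.filter fun z => ∃ s ∈ S, (s, z) ∈ E

def RR (E : Finset (V × V)) (S : Finset V) : Finset V := S ∪ Nb E S

theorem mem_Nb {E : Finset (V × V)} {S : Finset V} {z : V} :
    z ∈ Nb E S ↔ ∃ s ∈ S, (s, z) ∈ E := by simp [Nb]

theorem mem_RR {E : Finset (V × V)} {S : Finset V} {z : V} :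
    z ∈ RR E S ↔ z ∈ S ∨ ∃ s ∈ S, (s, z) ∈ E := by simp [RR, Nb]

theorem sub_RR (E : Finset (V × V)) (S : Finset V) : S ⊆ RR E S := subset_union_left

theorem RR_mono {E E' : Finset (V × V)} {S S' : Finset V} (hE : E ⊆ E') (hS : S ⊆ S') :
    RR E S ⊆ RR E' S' := by
  intro z hz
  rw [mem_RR] at hz ⊢
  rcases hz with h | ⟨s, hs, h⟩
  · exact Or.inl (hS h)
  · exact Or.inr ⟨s, hS hs, hE h⟩

def Bad (E : Finset (V × V)) : Prop :=
  (∀ a b, (a, b) ∈ E → (b, a) ∉ E) ∧
    ∀ v, 100 * (RR E (RR E {v})).card + 77 < 177 * (RR E {v}).card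

theorem subset_prop {E : Finset (V × V)} (hE : Bad E)
    (hmin : ∀ E' : Finset (V × V), Bad E' → E.card ≤ E'.card) (S : Finset V) :
    100 * (RR E (RR E S)).card + 77 * S.card ≤ 177 * (RR E S).card := by
  set PP : Finset V → Finset V := fun Y => Y ∪ Nb E (Y \ S) with hPP
  have memPP : ∀ Y z, z ∈ PP Y ↔ z ∈ Y ∨ ∃ s, (s ∈ Y ∧ s ∉ S) ∧ (s, z) ∈ E := by
    intro Y z
    simp [hPP, mem_Nb]
  obtain ⟨Y, hY, hYm⟩ := Finset.exists_min_image
    (univ.filter fun Y : Finset V => S ⊆ Y ∧ Y ⊆ RR E S)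
    (fun Y => (100 * (PP Y).card - 177 * Y.card : ℤ)) ⟨S, by simp [sub_RR]⟩
  simp only [mem_filter, mem_univ, true_and] at hY hYm
  by_cases hYe : RR E S ⊆ Y
  · have h1 := hYm S ⟨subset_rfl, sub_RR E S⟩
    have h2 : (RR E (RR E S)).card ≤ (PP Y).card := by
      refine card_le_card fun z hz => ?_
      rw [memPP]
      rcases mem_RR.mp hz with h | ⟨s, hs, h⟩
      · exact Or.inl (hYe h)
      · by_cases hsS : s ∈ S
        · exact Or.inl (hYe (mem_RR.mpr (Or.inr ⟨s, hsS, h⟩)))
        · exact Or.inr ⟨s, ⟨hYe hs, hsS⟩, h⟩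
    have h3 : (PP S).card ≤ S.card := by
      refine card_le_card fun z hz => ?_
      rcases (memPP _ _).mp hz with h | ⟨s, hs, _⟩
      · exact h
      · exact absurd hs.1 hs.2
    have h4 := card_le_card hY.2
    omega
  exfalso
  set E' := E.filter (fun p => ¬ (p.1 ∈ S ∧ p.2 ∉ Y)) with hE'
  have hsub : E' ⊆ E := filter_subset _ _
  have hlt : E'.card < E.card := by
    obtain ⟨z, hz, hzY⟩ := not_subset.mp hYe
    rcases mem_RR.mp hz with h | ⟨s, hs, h⟩
    · exact absurd (hY.1 h) hzY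
    · refine card_lt_card ⟨hsub, fun h' => ?_⟩
      have := h' h
      simp [hE', hs, hzY] at this
  refine absurd (hmin E' ⟨fun a b h h' => hE.1 a b (hsub h) (hsub h'), fun v => ?_⟩) (by omega)
  have hv := hE.2 v
  by_cases hvS : v ∈ S
  · have e1 : RR E' {v} = RR E {v} ∩ Y := by
      ext z
      simp only [mem_RR, mem_singleton, exists_eq_left, hE', mem_filter, mem_inter]
      constructor
      · rintro (rfl | ⟨h, h'⟩)
        · exact ⟨Or.inl rfl, hY.1 hvS⟩
        · exact ⟨Or.inr h, by tauto⟩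
      · rintro ⟨h | h, h'⟩
        · exact Or.inl h
        · exact Or.inr ⟨h, by tauto⟩
    rw [e1]
    set A := RR E {v} with hA
    have hAS : A ⊆ RR E S := RR_mono subset_rfl (singleton_subset_iff.mpr hvS)
    have h1 := card_inter_add_card_sdiff A Y
    have h2 : RR E' (A ∩ Y) ⊆ RR E A ∩ PP Y := by
      intro z hz
      refine mem_inter.mpr ⟨RR_mono hsub inter_subset_left hz, ?_⟩
      rw [memPP]
      rcases mem_RR.mp hz with h | ⟨s, hs, h⟩
      · exact Or.inl (mem_inter.mp h).2
      · rw [hE', mem_filter] at h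
        by_cases hsS : s ∈ S
        · left
          have := h.2
          tauto
        · exact Or.inr ⟨s, ⟨(mem_inter.mp hs).2, hsS⟩, h.1⟩
    have h3 : PP (Y ∪ A \ Y) \ PP Y ⊆ RR E A \ PP Y := by
      intro z hz
      rw [mem_sdiff] at hz ⊢
      refine ⟨?_, hz.2⟩
      have hn := hz.2
      rw [memPP] at hn
      rcases (memPP _ _).mp hz.1 with h | ⟨s, ⟨hs, hsS⟩, h⟩
      · rcases mem_union.mp h with h | h
        · exact absurd (Or.inl h) hn
        · exact sub_RR _ _ (mem_sdiff.mp h).1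
      · rcases mem_union.mp hs with hs | hs
        · exact absurd (Or.inr ⟨s, ⟨hs, hsS⟩, h⟩) hn
        · exact mem_RR.mpr (Or.inr ⟨s, (mem_sdiff.mp hs).1, h⟩)
    have h4 := card_inter_add_card_sdiff (RR E A) (PP Y)
    have h5 : (PP (Y ∪ A \ Y)).card ≤ (PP (Y ∪ A \ Y) \ PP Y).card + (PP Y).card :=
      card_le_card_sdiff_add_card
    have h6 : (Y ∪ A \ Y).card = Y.card + (A \ Y).card := card_union_of_disjoint disjoint_sdiff
    have h7 := hYm (Y ∪ A \ Y) ⟨hY.1.trans subset_union_left,
      union_subset hY.2 (sdiff_subset.trans hAS)⟩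
    have h8 := card_le_card h2
    have h9 := card_le_card h3
    omega
  · have e1 : RR E' {v} = RR E {v} := by
      ext z
      simp [mem_RR, hE', hvS]
    rw [e1]
    have := card_le_card (RR_mono hsub (subset_rfl (a := RR E {v})))
    omega

/-- The properties of a minimal counterexample that are used. -/
structure Good (E : Finset (V × V)) (W : Finset V) (u : V) : Prop where
  asym : ∀ a b, (a, b) ∈ E → (b, a) ∉ E
  sub : ∀ S : Finset V, 100 * (RR E (RR E S)).card + 77 * S.card ≤ 177 * (RR E S).card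
  closed : RR E W ⊆ W
  tail : ∀ S ⊆ W, S.Nonempty → 23 * W.card + 77 * S.card ≤ 100 * (RR E S).card
  umem : u ∈ W
  umin : ∀ x ∈ W, (RR E {u}).card ≤ (RR E {x}).card
  two : 2 ≤ (RR E {u}).card

theorem exists_good [Nonempty V] {E₀ : Finset (V × V)} (h₀ : Bad E₀) :
    ∃ (E : Finset (V × V)) (W : Finset V) (u : V), Good E W u := by
  classical
  obtain ⟨E, hE, hmin⟩ := Finset.exists_min_image (univ.filter fun E : Finset (V × V) => Bad E)
    card ⟨E₀, by simp [h₀]⟩
  simp only [mem_filter, mem_univ, true_and] at hE hmin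
  have hsub := subset_prop hE hmin
  obtain ⟨W, hW, hWm⟩ := Finset.exists_min_image
    (univ.filter fun W : Finset V => W.Nonempty ∧ RR E W ⊆ W) card ⟨univ, by simp⟩
  simp only [mem_filter, mem_univ, true_and] at hW hWm
  obtain ⟨u, hu, hum⟩ := Finset.exists_min_image W (fun x => (RR E {x}).card) hW.1
  have htail : ∀ n : ℕ, ∀ S ⊆ W, S.Nonempty → W.card ≤ S.card + n →
      23 * W.card + 77 * S.card ≤ 100 * (RR E S).card := by
    intro n
    induction n with
    | zero =>
      intro S _ _ h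
      have := card_le_card (sub_RR E S)
      omega
    | succ n ih =>
      intro S hS hne h
      have h1 := card_le_card (sub_RR E S)
      by_cases hc : RR E S ⊆ S
      · have := hWm S ⟨hne, hc⟩
        omega
      · have h2 : S.card < (RR E S).card := card_lt_card ⟨sub_RR E S, hc⟩
        have h3 := ih (RR E S) ((RR_mono subset_rfl hS).trans hW.2) (hne.mono (sub_RR E S))
          (by omega)
        have := hsub S
        omega
  refine ⟨E, W, u, hE.1, hsub, hW.2, fun S hS hne => htail W.card S hS hne (by omega), hu, hum, ?_⟩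
  have h1 := hE.2 u
  have h2 := card_le_card (sub_RR E (RR E {u}))
  omega

end Vale.Agent.P038
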