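import Mathlib

/-! The certificate checker for the second neighbourhood constant. -/

namespace Vale.Agent.P038

inductive Pd where
  | bx (m : ℕ)
  | bz (m : ℕ)
  | bu (m : ℕ)
  | ix (m : ℕ)
  | iz (m : ℕ)

structure Row where
  mu : ℕ
  g : ℕ
  cl : List (List Pd)

structure Cert where
  rw : List (List (List (List (List Row))))
  lw : List (List (List (List (List ℤ))))

/-- Position of a third vertex `z`: layer and distances to and from `x`, `y`. -/
structure Fl where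
  c : ℕ
  xz : ℕ
  zx : ℕ
  yz : ℕ
  zy : ℕ

def plo (z : Fl) : Pd → ℕ
  | .bx m => z.xz - m
  | .bz m => z.yz - m
  | .bu m => z.c - m
  | .ix m => m - z.zx
  | .iz m => m - z.zy

def phi (z : Fl) : List Pd → ℕ
  | [.bx m] => if z.xz < 3 then z.xz - m else 4
  | [.bz m] => if z.yz < 3 then z.yz - m else 4
  | [.bu m] => if z.c < 4 then z.c - m else 4
  | _ => 4

def clo (z : Fl) : List Pd → ℕ
  | [] => 0
  | p :: l => max (plo z p) (clo z l)

def lo (z : Fl) : List (List Pd) → ℕ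
  | [] => 4
  | c :: l => min (clo z c) (lo z l)

def hi (z : Fl) : List (List Pd) → ℕ
  | [] => 4
  | c :: l => min (phi z c) (hi z l)

/-- The clause list contains a ball around one of the three roots. -/
def rooted : List (List Pd) → Bool
  | [] => false
  | [.bx _] :: _ => true
  | [.bz _] :: _ => true
  | [.bu _] :: _ => true
  | _ :: l => rooted l

def GG (g d : ℕ) : ℤ :=
  match g, d with
  | 0, 1 => 77
  | 0, 2 => -100
  | 0, _ => 0
  | 1, 0 => 0
  | 1, 1 => 77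
  | 1, _ => -23
  | 2, 2 => 77
  | 2, 3 => -100
  | 2, _ => 0
  | _, 0 => 0
  | _, 1 => 0
  | _, 2 => 77
  | _, _ => -23

/-- Maximum of `GG g` over `[l, h]`. -/
def GT (g l h : ℕ) : ℤ :=
  match g, l with
  | _, 0 => 0
  | 0, 1 => 77
  | 0, 2 => if h ≤ 2 then -100 else 0
  | 0, _ => 0
  | 1, 1 => 77
  | 1, _ => -23
  | 2, 1 => if h ≤ 1 then 0 else 77
  | 2, 2 => 77
  | 2, 3 => if h ≤ 3 then -100 else 0
  | 2, _ => 0
  | _, 1 => if h ≤ 1 then 0 else 77
  | _, 2 => 77
  | _, _ => -23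

def coef (r : Row) (z : Fl) : ℤ :=
  match r.g with
  | 0 => GT 0 (lo z r.cl) (hi z r.cl)
  | 1 => if rooted r.cl then GT 1 (lo z r.cl) 4 else 0
  | 2 => GT 2 (lo z r.cl) (hi z r.cl)
  | 3 => if rooted r.cl then GT 3 (lo z r.cl) (hi z r.cl) else 0
  | 4 => (if z.xz = 1 then 100 else 0) - (if z.c = 1 then 100 else 0)
  | _ => (if z.c = 1 then 100 else 0) - (if z.c = 0 then 100 else 0)

def rsum (z : Fl) : List Row → ℤ
  | [] => 0
  | r :: l => (r.mu : ℤ) * coef r z + rsum z l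

def dot : List ℤ → List ℤ → ℤ
  | a :: l, b :: m => a * b + dot l m
  | _, _ => 0

def get4 {α : Type} (t : List (List (List (List (List α))))) (a b c d : ℕ) : List α :=
  (((t.getD a []).getD b []).getD c []).getD d []

def hh (C : Cert) (cx cy xy yx : ℕ) (z : Fl) : ℤ :=
  dot (get4 C.lw cx cy xy yx) (get4 C.lw cx z.c z.xz z.zx) + rsum z (get4 C.rw cx cy xy yx)

def okp (i j a b : ℕ) : Bool :=
  if a = 0 then b = 0 && i = j else
  b ≠ 0 && (i ≠ 0 || j ≠ 0) && (a ≠ 1 || b ≠ 1) && (3 ≤ a || j ≤ i + a) && (3 ≤ b || i ≤ j + b) &&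
    (i ≠ 0 || a = min j 3) && (j ≠ 0 || b = min i 3)

def tri (a b c d e f : ℕ) : Bool :=
  c ≤ a + e && a ≤ c + f && e ≤ b + c && b ≤ e + d && f ≤ d + a && d ≤ f + b

def FF (C : Cert) (i j k a b c d e f : ℕ) : ℤ :=
  hh C i j a b ⟨k, c, d, e, f⟩ + hh C i k c d ⟨j, a, b, f, e⟩ + hh C j i b a ⟨k, e, f, c, d⟩ +
  hh C j k e f ⟨i, b, a, d, c⟩ + hh C k i d c ⟨j, f, e, a, b⟩ + hh C k j f e ⟨i, d, c, b, a⟩

def l4 : List ℕ := [0, 1, 2, 3]

def chk (C : Cert) (i j k : ℕ) : Bool :=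
  l4.all fun a => l4.all fun b => !okp i j a b || l4.all fun c => l4.all fun d =>
    !okp i k c d || l4.all fun e => l4.all fun f =>
      !okp j k e f || !tri a b c d e f || decide (FF C i j k a b c d e f < 0)

end Vale.Agent.P038
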