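import Vale.Agent.P038.Comb
import Vale.Agent.P038.Defs

/-! Truncated distances. -/

namespace Vale.Agent.P038

open Finset

variable {V : Type*} [Fintype V] [DecidableEq V]

def ds (E : Finset (V × V)) (S : Finset V) (z : V) : ℕ :=
  if z ∈ S then 0 else if z ∈ RR E S then 1 else if z ∈ RR E (RR E S) then 2
  else if z ∈ RR E (RR E (RR E S)) then 3 else 4

variable {E : Finset (V × V)}

theorem ds_le4 (S : Finset V) (z : V) : ds E S z ≤ 4 := by
  unfold ds; split_ifs <;> omega

theorem ds_zero {S : Finset V} {z : V} : ds E S z = 0 ↔ z ∈ S := by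
  unfold ds; split_ifs <;> simp [*]

theorem ds_le {S : Finset V} {z : V} {i : ℕ} (hi : i ≤ 3) : ds E S z ≤ i ↔ z ∈ (RR E)^[i] S := by
  have h1 := @sub_RR _ _ _ E S z
  have h2 := @sub_RR _ _ _ E (RR E S) z
  have h3 := @sub_RR _ _ _ E (RR E (RR E S)) z
  unfold ds
  interval_cases i <;> simp only [Function.iterate_succ_apply', Function.iterate_zero_apply] <;>
    split_ifs <;> simp_all

theorem ds_step (S : Finset V) {s z : V} (h : (s, z) ∈ E) : ds E S z ≤ ds E S s + 1 := by
  by_cases h3 : ds E S s ≤ 2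
  · have h1 : s ∈ (RR E)^[ds E S s] S := (ds_le (by omega)).mp le_rfl
    refine (ds_le (by omega)).mpr ?_
    rw [Function.iterate_succ_apply']
    exact mem_RR.mpr (Or.inr ⟨s, h1, h⟩)
  · have := ds_le4 (E := E) S z
    omega

theorem lip_aux (f : V → ℕ) (hf : ∀ s z, (s, z) ∈ E → f z ≤ f s + 1) {S : Finset V} {a : ℕ}
    (ha : ∀ s ∈ S, f s ≤ a) : ∀ i : ℕ, ∀ z ∈ (RR E)^[i] S, f z ≤ a + i := by
  intro i
  induction i with
  | zero => exact ha
  | succ i ih =>
    intro z hz
    rw [Function.iterate_succ_apply'] at hz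
    rcases mem_RR.mp hz with h | ⟨s, hs, h⟩
    · have := ih z h
      omega
    · have := ih s hs
      have := hf s z h
      omega

theorem lip (f : V → ℕ) (hf : ∀ s z, (s, z) ∈ E → f z ≤ f s + 1) {S : Finset V} {a : ℕ}
    (ha : ∀ s ∈ S, f s ≤ a) {z : V} (h4 : f z ≤ 4) : f z ≤ a + ds E S z := by
  by_cases h3 : ds E S z ≤ 3
  · exact lip_aux f hf ha _ z ((ds_le h3).mp le_rfl)
  · omega

theorem ds_tri (S : Finset V) (y z : V) : ds E S z ≤ ds E S y + ds E {y} z :=
  lip (ds E S) (fun _ _ h => ds_step S h) (by simp) (ds_le4 S z)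

theorem ds_arc {s z : V} (h : (s, z) ∈ E) : ds E {s} z ≤ 1 := by
  have := ds_step {s} h
  have h0 : ds E {s} s = 0 := ds_zero.mpr (mem_singleton_self s)
  omega

theorem ds_one {s z : V} (h : ds E {s} z = 1) : (s, z) ∈ E := by
  have h1 : z ∈ (RR E)^[1] {s} := (ds_le (by omega)).mp h.le
  have h0 : z ∉ ({s} : Finset V) := fun h' => by
    have := (ds_zero (E := E)).mpr h'
    omega
  rcases mem_RR.mp h1 with h | ⟨t, ht, h⟩
  · exact absurd h h0
  · rw [mem_singleton] at ht
    exact ht ▸ h

theorem iter_sub {W S : Finset V} (hW : RR E W ⊆ W) (hS : S ⊆ W) (i : ℕ) : (RR E)^[i] S ⊆ W := by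
  induction i with
  | zero => exact hS
  | succ i ih =>
    rw [Function.iterate_succ_apply']
    exact (RR_mono subset_rfl ih).trans hW

theorem hi_aux {W S : Finset V} (hW : RR E W ⊆ W) {a : V} (ha : a ∈ W) (m : ℕ)
    (hS : ∀ w ∈ W, ds E {a} w ≤ m → w ∈ S) :
    ∀ i ≤ 3, ∀ z ∈ (RR E)^[i] {a}, ds E S z ≤ i - m := by
  intro i
  induction i with
  | zero =>
    intro _ z hz
    have h0 : ds E {a} z = 0 := ds_zero.mpr hz
    have := (ds_zero (E := E)).mpr
      (hS z (iter_sub hW (singleton_subset_iff.mpr ha) 0 hz) (by omega))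
    omega
  | succ i ih =>
    intro hi z hz
    by_cases hm : i + 1 ≤ m
    · have := (ds_zero (E := E)).mpr (hS z (iter_sub hW (singleton_subset_iff.mpr ha) _ hz)
        (((ds_le hi).mpr hz).trans hm))
      omega
    rw [Function.iterate_succ_apply'] at hz
    rcases mem_RR.mp hz with h | ⟨s, hs, h⟩
    · have := ih (by omega) z h
      omega
    · have := ih (by omega) s hs
      have := ds_step S h
      omega

theorem hi_root {W S : Finset V} (hW : RR E W ⊆ W) {a : V} (ha : a ∈ W) (m : ℕ)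
    (hS : ∀ w ∈ W, ds E {a} w ≤ m → w ∈ S) {z : V} (hz : ds E {a} z ≤ 3) :
    ds E S z ≤ ds E {a} z - m :=
  hi_aux hW ha m hS _ hz z ((ds_le hz).mp le_rfl)

/-- Distance truncated at three. -/
def DD (E : Finset (V × V)) (x z : V) : ℕ := min (ds E {x} z) 3

theorem DD_tri (x y z : V) : DD E x z ≤ DD E x y + DD E y z := by
  have := ds_tri (E := E) {x} y z
  unfold DD
  omega

def fl (E : Finset (V × V)) (u x y z : V) : Fl :=
  ⟨ds E {u} z, DD E x z, DD E z x, DD E y z, DD E z y⟩

theorem plo_step (u x y : V) {s z : V} (h : (s, z) ∈ E) (p : Pd) :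
    plo (fl E u x y z) p ≤ plo (fl E u x y s) p + 1 := by
  have h1 : DD E s z ≤ 1 := by
    have := ds_arc h
    unfold DD
    omega
  have h2 := DD_tri (E := E) x s z
  have h3 := DD_tri (E := E) y s z
  have h4 := DD_tri (E := E) s z x
  have h5 := DD_tri (E := E) s z y
  have h6 := ds_step {u} h
  cases p <;> simp only [plo, fl] <;> omega

theorem clo_step (u x y : V) {s z : V} (h : (s, z) ∈ E) (c : List Pd) :
    clo (fl E u x y z) c ≤ clo (fl E u x y s) c + 1 := by
  induction c with
  | nil => simp [clo]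
  | cons p l ih =>
    have := plo_step u x y h p
    simp only [clo]
    omega

theorem lo_step (u x y : V) {s z : V} (h : (s, z) ∈ E) (c : List (List Pd)) :
    lo (fl E u x y z) c ≤ lo (fl E u x y s) c + 1 := by
  induction c with
  | nil => simp [lo]
  | cons p l ih =>
    have := clo_step u x y h p
    simp only [lo]
    omega

theorem lo_le4 (z : Fl) (c : List (List Pd)) : lo z c ≤ 4 := by
  induction c with
  | nil => simp [lo]
  | cons p l ih => simp only [lo]; omega

theorem lo_le_clo (z : Fl) {cl : List (List Pd)} {c : List Pd} (h : c ∈ cl) :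
    lo z cl ≤ clo z c := by
  induction cl with
  | nil => simp at h
  | cons p l ih =>
    simp only [lo]
    rcases List.mem_cons.mp h with rfl | h
    · omega
    · have := ih h
      omega

theorem okp_real {W : Finset V} {u : V} (hG : Good E W u) (x y : V) :
    okp (ds E {u} x) (ds E {u} y) (DD E x y) (DD E y x) = true := by
  have h1 := ds_tri (E := E) {u} x y
  have h2 := ds_tri (E := E) {u} y x
  have z1 : ds E {x} y = 0 ↔ y = x := by rw [ds_zero, mem_singleton]
  have z2 : ds E {y} x = 0 ↔ x = y := by rw [ds_zero, mem_singleton]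
  have z3 : ds E {u} x = 0 ↔ x = u := by rw [ds_zero, mem_singleton]
  have z4 : ds E {u} y = 0 ↔ y = u := by rw [ds_zero, mem_singleton]
  have a1 : ¬ (ds E {x} y = 1 ∧ ds E {y} x = 1) := fun h =>
    hG.asym _ _ (ds_one h.1) (ds_one h.2)
  by_cases hxy : x = y
  · subst hxy
    have : DD E x x = 0 := by
      have := z1.mpr rfl
      unfold DD
      omega
    simp [okp, this]
  have n1 : ds E {x} y ≠ 0 := fun h => hxy (z1.mp h).symm
  have n2 : ds E {y} x ≠ 0 := fun h => hxy (z2.mp h)
  have n3 : ¬ (ds E {u} x = 0 ∧ ds E {u} y = 0) := fun h =>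
    hxy ((z3.mp h.1).trans (z4.mp h.2).symm)
  have n4 : ds E {u} x = 0 → ds E {x} y = ds E {u} y := fun h => by rw [z3.mp h]
  have n5 : ds E {u} y = 0 → ds E {y} x = ds E {u} x := fun h => by rw [z4.mp h]
  unfold okp DD
  rw [if_neg (by omega)]
  simp only [Bool.and_eq_true, Bool.or_eq_true, decide_eq_true_eq]
  omega

end Vale.Agent.P038
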