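import Vale.Agent.P038.Rows
import Vale.Agent.P038.ChkA
import Vale.Agent.P038.ChkB
import Vale.Agent.P038.ChkC
import Vale.Agent.P038.ChkD

/-! No minimal counterexample exists. -/

namespace Vale.Agent.P038

open Finset

theorem chk_all {i j k : ℕ} (h1 : i ≤ j) (h2 : j ≤ k) (h3 : k ≤ 4) : chk cert i j k = true := by
  have hj : j ≤ 4 := h2.trans h3
  interval_cases k <;> interval_cases j <;> interval_cases i
  · exact chk_000
  · exact chk_001
  · exact chk_011
  · exact chk_111
  · exact chk_002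
  · exact chk_012
  · exact chk_112
  · exact chk_022
  · exact chk_122
  · exact chk_222
  · exact chk_003
  · exact chk_013
  · exact chk_113
  · exact chk_023
  · exact chk_123
  · exact chk_223
  · exact chk_033
  · exact chk_133
  · exact chk_233
  · exact chk_333
  · exact chk_004
  · exact chk_014
  · exact chk_114
  · exact chk_024
  · exact chk_124
  · exact chk_224
  · exact chk_034
  · exact chk_134
  · exact chk_234
  · exact chk_334
  · exact chk_044
  · exact chk_144
  · exact chk_244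
  · exact chk_344
  · exact chk_444

theorem mem_l4 {a : ℕ} (h : a ≤ 3) : a ∈ l4 := by
  interval_cases a <;> simp [l4]

theorem chk_spec {C : Cert} {i j k a b c d e f : ℕ} (h : chk C i j k = true) (ha : a ≤ 3)
    (hb : b ≤ 3) (hc : c ≤ 3) (hd : d ≤ 3) (he : e ≤ 3) (hf : f ≤ 3) (h1 : okp i j a b = true)
    (h2 : okp i k c d = true) (h3 : okp j k e f = true) (h4 : tri a b c d e f = true) :
    FF C i j k a b c d e f < 0 := by
  unfold chk at h
  have g1 := List.all_eq_true.mp (List.all_eq_true.mp h a (mem_l4 ha)) b (mem_l4 hb)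
  rw [h1, Bool.not_true, Bool.false_or] at g1
  have g2 := List.all_eq_true.mp (List.all_eq_true.mp g1 c (mem_l4 hc)) d (mem_l4 hd)
  rw [h2, Bool.not_true, Bool.false_or] at g2
  have g3 := List.all_eq_true.mp (List.all_eq_true.mp g2 e (mem_l4 he)) f (mem_l4 hf)
  rw [h3, h4, Bool.not_true, Bool.false_or, Bool.false_or] at g3
  exact of_decide_eq_true g3

variable {V : Type*} [Fintype V] [DecidableEq V] {E : Finset (V × V)} {W : Finset V} {u : V}

def HH (E : Finset (V × V)) (u x y z : V) : ℤ :=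
  hh cert (ds E {u} x) (ds E {u} y) (DD E x y) (DD E y x) (fl E u x y z)

theorem six_sorted (hG : Good E W u) {x y z : V} (h1 : ds E {u} x ≤ ds E {u} y)
    (h2 : ds E {u} y ≤ ds E {u} z) :
    HH E u x y z + HH E u x z y + HH E u y x z + HH E u y z x + HH E u z x y + HH E u z y x < 0 := by
  have hD : ∀ a b : V, DD E a b ≤ 3 := fun a b => min_le_right _ _
  refine chk_spec (chk_all h1 h2 (ds_le4 _ _)) (hD x y) (hD y x) (hD x z) (hD z x) (hD y z) (hD z y)
    (okp_real hG x y) (okp_real hG x z) (okp_real hG y z) ?_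
  simp only [tri, Bool.and_eq_true, decide_eq_true_eq]
  exact ⟨⟨⟨⟨⟨DD_tri x y z, DD_tri x z y⟩, DD_tri y x z⟩, DD_tri y z x⟩, DD_tri z x y⟩,
    DD_tri z y x⟩

theorem six (hG : Good E W u) (x y z : V) :
    HH E u x y z + HH E u x z y + HH E u y x z + HH E u y z x + HH E u z x y + HH E u z y x < 0 := by
  rcases le_total (ds E {u} x) (ds E {u} y) with h1 | h1 <;>
    rcases le_total (ds E {u} y) (ds E {u} z) with h2 | h2 <;>
    rcases le_total (ds E {u} x) (ds E {u} z) with h3 | h3
  · exact six_sorted hG h1 h2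
  · exact six_sorted hG h1 h2
  · have := six_sorted hG h3 h2
    omega
  · have := six_sorted hG h3 h1
    omega
  · have := six_sorted hG h1 h3
    omega
  · have := six_sorted hG h2 h3
    omega
  · have := six_sorted hG h2 h1
    omega
  · have := six_sorted hG h2 h1
    omega

theorem sum_HH (hG : Good E W u) : 0 ≤ ∑ x ∈ W, ∑ y ∈ W, ∑ z ∈ W, HH E u x y z := by
  refine sum_nonneg fun x hx => ?_
  unfold HH hh
  simp only [sum_add_distrib]
  refine add_nonneg ?_ (sum_nonneg fun y hy => sum_rsum hG hx hy _)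
  exact dot_psd W
    (W.sup fun y => (get4 cert.lw (ds E {u} x) (ds E {u} y) (DD E x y) (DD E y x)).length)
    (fun y => get4 cert.lw (ds E {u} x) (ds E {u} y) (DD E x y) (DD E y x))
    fun y hy => le_sup (f := fun y =>
      (get4 cert.lw (ds E {u} x) (ds E {u} y) (DD E x y) (DD E y x)).length) hy

theorem sw12 (W : Finset V) (h : V → V → V → ℤ) :
    ∑ x ∈ W, ∑ y ∈ W, ∑ z ∈ W, h y x z = ∑ x ∈ W, ∑ y ∈ W, ∑ z ∈ W, h x y z := sum_comm

theorem sw23 (W : Finset V) (h : V → V → V → ℤ) :
    ∑ x ∈ W, ∑ y ∈ W, ∑ z ∈ W, h x z y = ∑ x ∈ W, ∑ y ∈ W, ∑ z ∈ W, h x y z :=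
  sum_congr rfl fun _ _ => sum_comm

theorem not_good (hG : Good E W u) : False := by
  have h0 := sum_HH hG
  have hne : W.Nonempty := ⟨u, hG.umem⟩
  have h1 : ∑ x ∈ W, ∑ y ∈ W, ∑ z ∈ W, (HH E u x y z + HH E u x z y + HH E u y x z +
      HH E u y z x + HH E u z x y + HH E u z y x) < ∑ _x ∈ W, ∑ _y ∈ W, ∑ _z ∈ W, (0 : ℤ) :=
    sum_lt_sum_of_nonempty hne fun x _ => sum_lt_sum_of_nonempty hne fun y _ =>
      sum_lt_sum_of_nonempty hne fun z _ => six hG x y z
  simp only [sum_add_distrib, sum_const_zero] at h1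
  have e1 := sw23 W (HH E u)
  have e2 := sw12 W (HH E u)
  have e3 := sw12 W (fun x y z => HH E u x z y)
  have e4 := sw23 W (fun x y z => HH E u y x z)
  have e5 := sw12 W (fun x y z => HH E u z x y)
  omega

theorem not_bad [Nonempty V] (E : Finset (V × V)) : ¬ Bad E := fun h => by
  obtain ⟨E, W, u, hG⟩ := exists_good h
  exact not_good hG

end Vale.Agent.P038
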