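import Vale.Agent.P038.Dist

/-! Validity of the linear inequalities. -/

namespace Vale.Agent.P038

open Finset

variable {V : Type*} [Fintype V] [DecidableEq V] {E : Finset (V × V)} {W : Finset V} {u : V}

def sset (E : Finset (V × V)) (W : Finset V) (u x y : V) (cl : List (List Pd)) : Finset V :=
  W.filter fun z => lo (fl E u x y z) cl = 0

theorem lo_le_ds (x y : V) (cl : List (List Pd)) (z : V) :
    lo (fl E u x y z) cl ≤ ds E (sset E W u x y cl) z := by
  have := lip (E := E) (fun z => lo (fl E u x y z) cl) (fun _ _ h => lo_step u x y h cl)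
    (S := sset E W u x y cl) (a := 0) (fun s hs => (mem_filter.mp hs).2.le) (lo_le4 _ cl) (z := z)
  omega

theorem ds_le_phi (hG : Good E W u) {x y : V} (hx : x ∈ W) (hy : y ∈ W) {cl : List (List Pd)}
    {c : List Pd} (hc : c ∈ cl) (z : V) :
    ds E (sset E W u x y cl) z ≤ phi (fl E u x y z) c := by
  have h4 := ds_le4 (E := E) (sset E W u x y cl) z
  unfold phi
  split
  · rename_i m
    split_ifs with h
    · simp only [fl, DD] at h ⊢
      have := hi_root hG.closed hx m (S := sset E W u x y cl) (fun w hw h => by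
        have := lo_le_clo (fl E u x y w) hc
        simp only [clo, plo, fl, DD] at this
        refine mem_filter.mpr ⟨hw, ?_⟩
        simp only [fl, DD]
        omega) (z := z) (by omega)
      omega
    · exact h4
  · rename_i m
    split_ifs with h
    · simp only [fl, DD] at h ⊢
      have := hi_root hG.closed hy m (S := sset E W u x y cl) (fun w hw h => by
        have := lo_le_clo (fl E u x y w) hc
        simp only [clo, plo, fl, DD] at this
        refine mem_filter.mpr ⟨hw, ?_⟩
        simp only [fl, DD]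
        omega) (z := z) (by omega)
      omega
    · exact h4
  · rename_i m
    split_ifs with h
    · simp only [fl] at h ⊢
      exact hi_root hG.closed hG.umem m (S := sset E W u x y cl) (fun w hw h => by
        have := lo_le_clo (fl E u x y w) hc
        simp only [clo, plo, fl] at this
        refine mem_filter.mpr ⟨hw, ?_⟩
        simp only [fl]
        omega) (z := z) (by omega)
    · exact h4
  · exact h4

theorem ds_le_hi (hG : Good E W u) {x y : V} (hx : x ∈ W) (hy : y ∈ W) {cl : List (List Pd)}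
    (z : V) : ∀ l : List (List Pd), (∀ c ∈ l, c ∈ cl) →
      ds E (sset E W u x y cl) z ≤ hi (fl E u x y z) l := by
  intro l
  induction l with
  | nil => exact fun _ => ds_le4 _ _
  | cons c l ih =>
    intro h
    exact le_min (ds_le_phi hG hx hy (h c (by simp)) z) (ih fun c hc => h c (by simp [hc]))

theorem sset_ne (hG : Good E W u) {x y : V} (hx : x ∈ W) (hy : y ∈ W) {cl : List (List Pd)} :
    ∀ l : List (List Pd), (∀ c ∈ l, c ∈ cl) → rooted l = true →
      (sset E W u x y cl).Nonempty := by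
  have h0 : ∀ a : V, ds E {a} a = 0 := fun a => ds_zero.mpr (mem_singleton_self a)
  intro l
  fun_induction rooted l with
  | case1 => simp
  | case2 m l =>
    intro h _
    have := lo_le_clo (fl E u x y x) (h [.bx m] (by simp))
    refine ⟨x, mem_filter.mpr ⟨hx, ?_⟩⟩
    simp only [clo, plo, fl, DD, h0] at this ⊢
    omega
  | case3 m l =>
    intro h _
    have := lo_le_clo (fl E u x y y) (h [.bz m] (by simp))
    refine ⟨y, mem_filter.mpr ⟨hy, ?_⟩⟩
    simp only [clo, plo, fl, DD, h0] at this ⊢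
    omega
  | case4 m l =>
    intro h _
    have := lo_le_clo (fl E u x y u) (h [.bu m] (by simp))
    refine ⟨u, mem_filter.mpr ⟨hG.umem, ?_⟩⟩
    simp only [clo, plo, fl, DD, h0] at this ⊢
    omega
  | case5 c l _ _ _ ih =>
    intro h h'
    exact ih (fun c hc => h c (by simp [hc])) h'

theorem GG_le_GT {g l h d : ℕ} (hg : g ≤ 3) (h1 : l ≤ d) (h2 : d ≤ h) (h3 : d ≤ 4)
    (h4 : l = 0 → d = 0) : GG g d ≤ GT g l h := by
  have hl : l ≤ 4 := by omega
  interval_cases g <;> interval_cases d <;> interval_cases l <;> simp only [GG, GT] <;>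
    first | omega | (split_ifs <;> omega)

theorem sum_ind {T : Finset V} (h : T ⊆ W) :
    ∑ z ∈ W, (if z ∈ T then (1 : ℤ) else 0) = T.card := by
  simp [inter_eq_right.mpr h, Finset.filter_mem_eq_inter]

theorem sum_lin {A B C : Finset V} (hA : A ⊆ W) (hB : B ⊆ W) (hC : C ⊆ W) (a b c : ℤ)
    (f : V → ℤ) (hf : ∀ z ∈ W, f z = a * (if z ∈ A then 1 else 0) + b * (if z ∈ B then 1 else 0) +
      c * (if z ∈ C then 1 else 0)) :
    ∑ z ∈ W, f z = a * A.card + b * B.card + c * C.card := by
  rw [sum_congr rfl hf, sum_add_distrib, sum_add_distrib, ← mul_sum, ← mul_sum, ← mul_sum,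
    sum_ind hA, sum_ind hB, sum_ind hC]

theorem GG_ind {g d : ℕ} (h4 : d ≤ 4) (hg : g ≤ 3) : GG g d =
    -77 * (if d ≤ g / 2 then 1 else 0) + (177 - 77 * (g % 2 : ℕ)) * (if d ≤ g / 2 + 1 then 1 else 0) +
      (-100 + 77 * (g % 2 : ℕ)) * (if d ≤ g / 2 + 2 + 4 * (g % 2) then 1 else 0) := by
  interval_cases g <;> interval_cases d <;> rfl

theorem sum_GG (hG : Good E W u) {S : Finset V} (hS : S ⊆ W) {g : ℕ} (hg : g ≤ 3)
    (hne : g = 1 ∨ g = 3 → S.Nonempty) : 0 ≤ ∑ z ∈ W, GG g (ds E S z) := by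
  have s1 : RR E S ⊆ W := iter_sub hG.closed hS 1
  have s2 : RR E (RR E S) ⊆ W := iter_sub hG.closed hS 2
  have s3 : RR E (RR E (RR E S)) ⊆ W := iter_sub hG.closed hS 3
  have d0 : ∀ z, ds E S z ≤ 0 ↔ z ∈ S := fun z => ds_le (i := 0) (by omega)
  have d1 : ∀ z, ds E S z ≤ 1 ↔ z ∈ RR E S := fun z => ds_le (i := 1) (by omega)
  have d2 : ∀ z, ds E S z ≤ 2 ↔ z ∈ RR E (RR E S) := fun z => ds_le (i := 2) (by omega)
  have d3 : ∀ z, ds E S z ≤ 3 ↔ z ∈ RR E (RR E (RR E S)) := fun z => ds_le (i := 3) (by omega)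
  have d6 : ∀ z, ds E S z ≤ 6 := fun z => (ds_le4 S z).trans (by omega)
  have d7 : ∀ z, ds E S z ≤ 7 := fun z => (ds_le4 S z).trans (by omega)
  interval_cases g
  · rw [sum_lin hS s1 s2 (-77) 177 (-100)]
    · have := hG.sub S
      omega
    · intro z _
      rw [GG_ind (ds_le4 S z) hg]
      simp only [Nat.zero_div, Nat.zero_mod, zero_add, mul_zero, add_zero, d0, d1, d2]
      norm_num
  · rw [sum_lin hS s1 subset_rfl (-77) 100 (-23)]
    · have := hG.tail S hS (hne (by simp))
      omega
    · intro z hz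
      rw [GG_ind (ds_le4 S z) hg]
      simp only [Nat.reduceDiv, Nat.reduceMod, Nat.reduceAdd, Nat.reduceMul, d0, d1, d6, hz]
      norm_num
  · rw [sum_lin s1 s2 s3 (-77) 177 (-100)]
    · have := hG.sub (RR E S)
      omega
    · intro z _
      rw [GG_ind (ds_le4 S z) hg]
      simp only [Nat.reduceDiv, Nat.reduceMod, Nat.reduceAdd, Nat.reduceMul, d1, d2, d3]
      norm_num
  · rw [sum_lin s1 s2 subset_rfl (-77) 100 (-23)]
    · have := hG.tail (RR E S) s1 ((hne (by simp)).mono (sub_RR _ _))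
      omega
    · intro z hz
      rw [GG_ind (ds_le4 S z) hg]
      simp only [Nat.reduceDiv, Nat.reduceMod, Nat.reduceAdd, Nat.reduceMul, d1, d2, d7, hz]
      norm_num

theorem sum_GT (hG : Good E W u) {x y : V} (cl : List (List Pd)) {g : ℕ} (hg : g ≤ 3)
    (hne : g = 1 ∨ g = 3 → (sset E W u x y cl).Nonempty) (H : V → ℕ)
    (hH : ∀ z, ds E (sset E W u x y cl) z ≤ H z) :
    0 ≤ ∑ z ∈ W, GT g (lo (fl E u x y z) cl) (H z) :=
  (sum_GG hG (filter_subset _ _) hg hne).trans (sum_le_sum fun z hz =>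
    GG_le_GT hg (lo_le_ds x y cl z) (hH z) (ds_le4 _ _)
      fun h => ds_zero.mpr (mem_filter.mpr ⟨hz, h⟩))

theorem sum_one (hG : Good E W u) {a : V} (ha : a ∈ W) :
    ∑ z ∈ W, (if ds E {a} z = 1 then (100 : ℤ) else 0) = 100 * (RR E {a}).card - 100 := by
  have s0 : ({a} : Finset V) ⊆ W := singleton_subset_iff.mpr ha
  rw [sum_lin s0 (iter_sub hG.closed s0 1) s0 (-100) 100 0]
  · simp only [card_singleton, Function.iterate_one]
    omega
  · intro z _
    have := @sub_RR _ _ _ E {a} z
    simp only [Function.iterate_one]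
    unfold ds
    split_ifs <;> simp_all

theorem sum_coef (hG : Good E W u) {x y : V} (hx : x ∈ W) (hy : y ∈ W) (r : Row) :
    0 ≤ ∑ z ∈ W, coef r (fl E u x y z) := by
  have hhi := fun z => ds_le_hi hG hx hy (cl := r.cl) z r.cl fun _ h => h
  have hne := sset_ne hG hx hy (cl := r.cl) r.cl fun _ h => h
  unfold coef
  split
  · exact sum_GT hG r.cl (by omega) (by omega) _ hhi
  · split_ifs with h
    · exact sum_GT hG r.cl (by omega) (fun _ => hne h) _ fun z => ds_le4 _ _
    · simp
  · exact sum_GT hG r.cl (by omega) (by omega) _ hhi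
  · split_ifs with h
    · exact sum_GT hG r.cl (by omega) (fun _ => hne h) _ hhi
    · simp
  · have e : ∀ z, (fl E u x y z).xz = 1 ↔ ds E {x} z = 1 := fun z => by
      simp only [fl, DD]; omega
    simp only [e]
    show 0 ≤ ∑ z ∈ W, ((if ds E {x} z = 1 then (100 : ℤ) else 0) -
      (if ds E {u} z = 1 then (100 : ℤ) else 0))
    rw [sum_sub_distrib, sum_one hG hx, sum_one hG hG.umem]
    have := hG.umin x hx
    omega
  · show 0 ≤ ∑ z ∈ W, ((if ds E {u} z = 1 then (100 : ℤ) else 0) -
      (if ds E {u} z = 0 then (100 : ℤ) else 0))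
    rw [sum_sub_distrib, sum_one hG hG.umem]
    simp only [ds_zero, mem_singleton, sum_ite_eq', hG.umem, if_true]
    have := hG.two
    omega

theorem sum_rsum (hG : Good E W u) {x y : V} (hx : x ∈ W) (hy : y ∈ W) (l : List Row) :
    0 ≤ ∑ z ∈ W, rsum (fl E u x y z) l := by
  induction l with
  | nil => simp [rsum]
  | cons r l ih =>
    simp only [rsum]
    rw [sum_add_distrib, ← mul_sum]
    have := sum_coef hG hx hy r
    positivity

theorem dot_eq (a b : List ℤ) : dot a b = a.headD 0 * b.headD 0 + dot a.tail b.tail := by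
  cases a <;> cases b <;> simp [dot]

theorem dot_psd (W : Finset V) : ∀ N : ℕ, ∀ v : V → List ℤ, (∀ y ∈ W, (v y).length ≤ N) →
    0 ≤ ∑ y ∈ W, ∑ z ∈ W, dot (v y) (v z) := by
  intro N
  induction N with
  | zero =>
    intro v hv
    refine sum_nonneg fun y hy => sum_nonneg fun z _ => ?_
    rw [List.length_eq_zero_iff.mp (Nat.le_zero.mp (hv y hy))]
    simp [dot]
  | succ N ih =>
    intro v hv
    have h1 := ih (fun y => (v y).tail) fun y hy => by
      have := hv y hy
      rw [List.length_tail]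
      omega
    have e : ∑ y ∈ W, ∑ z ∈ W, dot (v y) (v z) =
        (∑ y ∈ W, (v y).headD 0) * (∑ y ∈ W, (v y).headD 0) +
          ∑ y ∈ W, ∑ z ∈ W, dot (v y).tail (v z).tail := by
      rw [sum_mul_sum, ← sum_add_distrib]
      refine sum_congr rfl fun y _ => ?_
      rw [← sum_add_distrib]
      exact sum_congr rfl fun z _ => dot_eq _ _
    rw [e]
    exact add_nonneg (mul_self_nonneg _) h1

end Vale.Agent.P038
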